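import Vale.Agent.H14.CD.Main
import Vale.Agent.H14.CD.Lat

/-!
# Worst-case covering density of convex bodies

There is an absolute constant `c > 0` such that for all large `n` some convex body `K ⊂ ℝ^n` has
translative covering density at least `c n log n`.  In particular no bound `θ_T(K) ≤ C n` holds
with an absolute constant `C`.  The proof is in `Vale/Agent/H14/CD/`.
-/

namespace Vale.Agent.Results.P230.NoLinearBound

open MeasureTheory Filter
open scoped ENNReal Pointwise

/-- A convex body: a compact convex set with nonempty interior. -/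
def IsConvexBody {n : ℕ} (K : Set (EuclideanSpace ℝ (Fin n))) : Prop :=
  Convex ℝ K ∧ IsCompact K ∧ (interior K).Nonempty

/-- The cube `Q_R = [-R, R]^n`. -/
def cube (n : ℕ) (R : ℝ) : Set (EuclideanSpace ℝ (Fin n)) := {x | ∀ i, |x i| ≤ R}

/-- `X` is locally finite: every bounded set contains finitely many points of `X`. -/
def IsLocallyFinite {n : ℕ} (X : Set (EuclideanSpace ℝ (Fin n))) : Prop :=
  ∀ B : Set (EuclideanSpace ℝ (Fin n)), Bornology.IsBounded B → (X ∩ B).Finite

/-- The translative covering density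
`θ_T(K) = inf { vol(K) limsup_{R → ∞} #(X ∩ Q_R)/(2R)^n : X locally finite, K + X = ℝ^n }`. -/
noncomputable def thetaT {n : ℕ} (K : Set (EuclideanSpace ℝ (Fin n))) : ℝ≥0∞ :=
  ⨅ (X : Set (EuclideanSpace ℝ (Fin n))) (_ : IsLocallyFinite X) (_ : K + X = Set.univ),
    volume K * limsup (fun R : ℝ =>
      ((X ∩ cube n R).encard : ℝ≥0∞) / ENNReal.ofReal ((2 * R) ^ n)) atTop

/-- `Θ_T(n)` -/
noncomputable def ThetaT (n : ℕ) : ℝ≥0∞ :=
  ⨆ (K : Set (EuclideanSpace ℝ (Fin n))) (_ : IsConvexBody K), thetaT K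

/-- `Θ_L(n) ≥ Θ_T(n) ≥ c n log n` for all large `n`; in particular there is no absolute constant
`C` with `θ_T(K) ≤ C n` for every convex body in every dimension. -/
theorem result :
    (∃ c : ℝ, 0 < c ∧ ∀ᶠ n : ℕ in atTop,
      ENNReal.ofReal (c * (n * Real.log n)) ≤ ThetaT n) ∧
    ¬ ∃ C : ℝ, ∀ n : ℕ, 1 ≤ n → ∀ K : Set (EuclideanSpace ℝ (Fin n)), IsConvexBody K →
      thetaT K ≤ ENNReal.ofReal (C * n) := by
  obtain ⟨c, hc, h⟩ := P230.main_theorem
  refine ⟨⟨c, hc, ?_⟩, ?_⟩
  · filter_upwards [h, eventually_ge_atTop 1] with n hn hn1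
    obtain ⟨K, hK, hle⟩ := hn
    have h1 : (c * (n * Real.log n)) = c * n * Real.log n := by ring
    rw [h1]
    exact le_trans hle (le_iSup₂_of_le K hK le_rfl)
  · rintro ⟨C, hC⟩
    have hlog : ∀ᶠ n : ℕ in atTop, |C| / c < Real.log n :=
      (Real.tendsto_log_atTop.comp tendsto_natCast_atTop_atTop).eventually_gt_atTop _
    obtain ⟨n, hn, hln, hn1⟩ := (h.and (hlog.and (eventually_ge_atTop 1))).exists
    obtain ⟨K, hK, hle⟩ := hn
    have h1 : ENNReal.ofReal (c * n * Real.log n) ≤ ENNReal.ofReal (C * n) :=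
      le_trans hle (hC n hn1 K hK)
    have hn0 : (0 : ℝ) < n := by exact_mod_cast hn1
    have hl0 : 0 < Real.log n := lt_of_le_of_lt (by positivity) hln
    have h2 : C * n < c * n * Real.log n := by
      rw [div_lt_iff₀ hc] at hln
      have h3 : C ≤ |C| := le_abs_self C
      nlinarith
    have h4 : 0 < c * n * Real.log n := by positivity
    exact absurd h1 (not_le.2 ((ENNReal.ofReal_lt_ofReal_iff h4).2 h2))

end Vale.Agent.Results.P230.NoLinearBound
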