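import Vale.Agent.H14.CD.Final

/-!
# The order of the worst-case translative covering density

`Θ_T(n)` has order `n log n`, and `Θ_L(n) ≥ Θ_T(n)`.  The proof is in `Vale/Agent/H14/CD/`.
-/

namespace Vale.Agent.Results.P230.WithLattice

open MeasureTheory Filter
open scoped ENNReal Pointwise

/-- Lebesgue measure of a set in `ℝ^n`. -/
noncomputable def vol {n : ℕ} (K : Set (EuclideanSpace ℝ (Fin n))) : ℝ≥0∞ := volume K

/-- A convex body: a compact convex set with nonempty interior. -/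
def IsConvexBody {n : ℕ} (K : Set (EuclideanSpace ℝ (Fin n))) : Prop :=
  Convex ℝ K ∧ IsCompact K ∧ (interior K).Nonempty

/-- `K + X = ℝ^n` -/
def Covers {n : ℕ} (K X : Set (EuclideanSpace ℝ (Fin n))) : Prop :=
  ∀ z, ∃ x ∈ K, ∃ y ∈ X, x + y = z

/-- The cube `Q_R = [-R, R]^n`. -/
def cube (n : ℕ) (R : ℝ) : Set (EuclideanSpace ℝ (Fin n)) := {x | ∀ i, |x i| ≤ R}

/-- `X` is locally finite: every bounded set contains finitely many points of `X`. -/
def IsLocallyFinite {n : ℕ} (X : Set (EuclideanSpace ℝ (Fin n))) : Prop :=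
  ∀ B : Set (EuclideanSpace ℝ (Fin n)), Bornology.IsBounded B → (X ∩ B).Finite

/-- The translative covering density
`θ_T(K) = inf { vol(K) limsup_{R → ∞} #(X ∩ Q_R)/(2R)^n : X locally finite, K + X = ℝ^n }`. -/
noncomputable def thetaT {n : ℕ} (K : Set (EuclideanSpace ℝ (Fin n))) : ℝ≥0∞ :=
  ⨅ (X : Set (EuclideanSpace ℝ (Fin n))) (_ : IsLocallyFinite X) (_ : Covers K X),
    vol K * limsup (fun R : ℝ =>
      ((X ∩ cube n R).encard : ℝ≥0∞) / ENNReal.ofReal ((2 * R) ^ n)) atTop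

/-- A full-rank lattice of `ℝ^n`. -/
def IsLattice {n : ℕ} (Λ : Submodule ℤ (EuclideanSpace ℝ (Fin n))) : Prop :=
  DiscreteTopology Λ ∧ Submodule.span ℝ (Λ : Set (EuclideanSpace ℝ (Fin n))) = ⊤

/-- The covolume of a lattice (Mathlib's definition). -/
noncomputable def det {n : ℕ} (Λ : Submodule ℤ (EuclideanSpace ℝ (Fin n))) : ℝ :=
  ZLattice.covolume Λ

/-- The lattice covering density
`θ_L(K) = inf { vol(K)/det Λ : Λ a full-rank lattice, K + Λ = ℝ^n }`. -/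
noncomputable def thetaL {n : ℕ} (K : Set (EuclideanSpace ℝ (Fin n))) : ℝ≥0∞ :=
  ⨅ (Λ : Submodule ℤ (EuclideanSpace ℝ (Fin n))) (_ : IsLattice Λ) (_ : Covers K Λ),
    vol K / ENNReal.ofReal (det Λ)

/-- `Θ_T(n)` -/
noncomputable def ThetaT (n : ℕ) : ℝ≥0∞ :=
  ⨆ (K : Set (EuclideanSpace ℝ (Fin n))) (_ : IsConvexBody K), thetaT K

/-- `Θ_L(n)` -/
noncomputable def ThetaL (n : ℕ) : ℝ≥0∞ :=
  ⨆ (K : Set (EuclideanSpace ℝ (Fin n))) (_ : IsConvexBody K), thetaL K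

/-- `c n log n ≤ Θ_T(n) ≤ C n log n` and `Θ_T(n) ≤ Θ_L(n)` for all large `n`; in particular there
is no absolute constant `C` with `θ_T(K) ≤ C n` for every convex body in every dimension. -/
theorem result :
    (∃ c C : ℝ, 0 < c ∧ 0 < C ∧ ∀ᶠ n : ℕ in atTop,
      ENNReal.ofReal (c * (n * Real.log n)) ≤ ThetaT n ∧
      ThetaT n ≤ ENNReal.ofReal (C * (n * Real.log n)) ∧ ThetaT n ≤ ThetaL n) ∧
    ¬ ∃ C : ℝ, ∀ n : ℕ, 1 ≤ n → ∀ K : Set (EuclideanSpace ℝ (Fin n)), IsConvexBody K →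
      thetaT K ≤ ENNReal.ofReal (C * n) := by
  have e : ∀ {n : ℕ} (K : Set (EuclideanSpace ℝ (Fin n))), thetaT K = P230.thetaT K :=
    fun K => P230.thetaT_covers K
  refine ⟨?_, fun ⟨C, hC⟩ => P230.final_no_linear ⟨C, fun n hn K hK => e K ▸ hC n hn K hK⟩⟩
  obtain ⟨c, C, hc, hC, h⟩ := P230.final_two_sided
  refine ⟨c, C, hc, hC, h.mono fun n ⟨hn1, ⟨K, hK, hle⟩, hup⟩ => ⟨?_, ?_, ?_⟩⟩
  · exact (hle.trans (e K).ge).trans (le_iSup₂_of_le K hK le_rfl)
  · exact iSup₂_le fun K hK => (e K).le.trans (hup K hK)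
  · exact iSup₂_mono fun K _ => (e K).le.trans
      ((P230.thetaT_le_thetaL hn1 K).trans (P230.thetaL_covers K))

end Vale.Agent.Results.P230.WithLattice
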